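import Vale.Agent.P192.Wreath

namespace Vale.Agent.P192

open Subgroup
open scoped commutatorElement

universe u

theorem exists_fin_gens (G : Type*) [Group G] [h : Group.FG G] :
    ∃ (d : ℕ) (g : Fin d → G), closure (Set.range g) = ⊤ := by
  obtain ⟨S, hS⟩ := h.out
  refine ⟨S.card, fun i => (S.equivFin.symm i : G), ?_⟩
  rw [← hS]
  congr 1
  ext x
  constructor
  · rintro ⟨i, rfl⟩
    exact (S.equivFin.symm i).2
  · intro hx
    exact ⟨S.equivFin ⟨x, hx⟩, by simp⟩

/-- Step B: a two generated finite index subgroup of a wreath product containing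
the commutator subgroup of the first coordinate. -/
theorem two_gen_step (G : Type u) [Group G] [Group.IsFinitelyPresented G] (hG : IsMulTorsion G) :
    ∃ (n : ℕ) (_ : NeZero n) (a t : RegularWreathProduct G (Multiplicative (ZMod n))),
      (closure {a, t}).FiniteIndex ∧
      ∀ c ∈ commutator G, base G (Multiplicative (ZMod n)) (Pi.mulSingle 1 c) ∈ closure {a, t} := by
  classical
  have hfg : Group.FG G := fg_of_fp
  obtain ⟨d, g, hg⟩ := exists_fin_gens G
  have hne : NeZero (2 ^ (d + 1)) := ⟨by positivity⟩
  let Q := Multiplicative (ZMod (2 ^ (d + 1)))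
  let α : Q → G := fun x => if h : ∃ i, pos d i = x then g h.choose else 1
  have hα : ∀ i, α (pos d i) = g i := by
    intro i
    have h : ∃ j, pos d j = pos d i := ⟨i, rfl⟩
    simp only [α, dif_pos h]
    congr 1
    exact pos_injective d h.choose_spec
  have hα' : ∀ x, x ∉ Set.range (pos d) → α x = 1 := by
    intro x hx
    have h : ¬ ∃ j, pos d j = x := hx
    simp only [α, dif_neg h]
  let a : RegularWreathProduct G Q := base G Q α
  let t : RegularWreathProduct G Q := RegularWreathProduct.inl (Multiplicative.ofAdd 1)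
  have ha : a ∈ closure {a, t} := subset_closure (by simp)
  have ht : t ∈ closure {a, t} := subset_closure (by simp)
  have hq : ∀ q : Q, RegularWreathProduct.inl q ∈ closure {a, t} := by
    intro q
    rw [zmod_cyclic _ q, map_pow]
    exact pow_mem ht _
  have key := sidon_lemma g hg (pos d) (pos_sidon d) α hα hα' (closure {a, t}) ha hq
  refine ⟨2 ^ (d + 1), hne, a, t, finiteIndex_of_base_commutator hG _ key, ?_⟩
  intro c hc
  apply key
  intro x
  by_cases h : x = 1
  · subst h
    simpa using hc
  · rw [Pi.mulSingle_eq_of_ne h]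
    exact one_mem _

/-- Step A: embedding into the commutator subgroup of a finitely presented periodic group. -/
theorem commutator_step (G : Type u) [Group G] [Group.IsFinitelyPresented G]
    (hG : IsMulTorsion G) :
    ∃ (G₁ : Type u) (_ : Group G₁), Group.IsFinitelyPresented G₁ ∧ IsMulTorsion G₁ ∧
      ∃ f : G →* G₁, Function.Injective f ∧ ∀ g, f g ∈ commutator G₁ := by
  classical
  have hfg : Group.FG G := fg_of_fp
  have hfin := finite_abelianization hG
  let m := Nat.card (Abelianization G)
  have hne : NeZero m := ⟨Nat.card_pos.ne'⟩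
  let Q := Multiplicative (ZMod m)
  have : Fintype Q := Fintype.ofFinite Q
  refine ⟨RegularWreathProduct G Q, inferInstance, fp_wreath G Q, torsion_wreath hG Q,
    (base G Q).comp (Pi.constMonoidHom Q G), ?_, ?_⟩
  · intro x y hxy
    have := base_injective G Q hxy
    exact congr_fun this 1
  · intro g
    apply diag_mem_commutator
    intro g
    rw [← Abelianization.ker_of, MonoidHom.mem_ker, map_pow]
    have : Fintype.card Q = m := by
      rw [Fintype.card_eq_nat_card]
      show Nat.card (Multiplicative (ZMod m)) = m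
      rw [Nat.card_congr Multiplicative.toAdd, Nat.card_zmod]
    rw [this]
    exact pow_card_eq_one'

theorem embed_two_generated (G : Type u) [Group G] [Group.IsFinitelyPresented G]
    (hG : IsMulTorsion G) :
    ∃ (H : Type u) (_ : Group H), Group.IsFinitelyPresented H ∧ IsMulTorsion H ∧
      (∃ a b : H, closure {a, b} = ⊤) ∧ ∃ f : G →* H, Function.Injective f := by
  classical
  obtain ⟨G₁, _, hfp, htor, f, hf, hfc⟩ := commutator_step G hG
  obtain ⟨n, hn, a, t, hfi, hmem⟩ := two_gen_step G₁ htor
  let Q := Multiplicative (ZMod n)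
  have hW : Group.IsFinitelyPresented (RegularWreathProduct G₁ Q) := fp_wreath G₁ Q
  let S : Subgroup (RegularWreathProduct G₁ Q) := closure {a, t}
  have ha : a ∈ S := subset_closure (by simp)
  have ht : t ∈ S := subset_closure (by simp)
  refine ⟨S, inferInstance, fp_of_finiteIndex S, (torsion_wreath htor Q).subgroup S,
    ⟨⟨a, ha⟩, ⟨t, ht⟩, ?_⟩, ?_⟩
  · have h1 : closure (Subtype.val ⁻¹' ({a, t} : Set (RegularWreathProduct G₁ Q)) : Set S) = ⊤ :=
      closure_closure_coe_preimage
    rw [← h1]
    congr 1
    ext x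
    simp [Subtype.ext_iff]
  · let e : G →* RegularWreathProduct G₁ Q :=
      ((base G₁ Q).comp (MonoidHom.mulSingle (fun _ => G₁) 1)).comp f
    refine ⟨e.codRestrict S (fun g => hmem _ (hfc g)), ?_⟩
    intro x y hxy
    have h1 : e x = e y := congr_arg Subtype.val hxy
    have h2 := base_injective G₁ Q h1
    have h3 : f x = f y := by
      have := congr_fun h2 1
      simpa using this
    exact hf h3

theorem fng_ker_of_surjective {P G : Type*} [Group P] [Group G] [hP : Group.FG P]
    [hG : Group.IsFinitelyPresented G] (ψ : P →* G) (hψ : Function.Surjective ψ) :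
    ψ.ker.IsFinitelyNormallyGenerated := by
  obtain ⟨n, φ, hφ, R, hRfin, hR⟩ := hG.out
  choose a ha using fun i : Fin n => hψ (φ (FreeGroup.of i))
  let α : FreeGroup (Fin n) →* P := FreeGroup.lift a
  have hα : ∀ u, ψ (α u) = φ u := by
    intro u
    have : ψ.comp α = φ := by
      ext i; simp [α, ha]
    exact DFunLike.congr_fun this u
  obtain ⟨T, hT⟩ := hP.out
  choose w hw using fun p : P => hφ (ψ p)
  let K := normalClosure (α '' R ∪ (fun p => p * (α (w p))⁻¹) '' (T : Set P))
  have hK : K ≤ ψ.ker := by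
    apply normalClosure_le_normal
    rintro _ (⟨r, hr, rfl⟩ | ⟨p, -, rfl⟩)
    · show ψ (α r) = 1
      rw [hα]
      have : r ∈ φ.ker := hR ▸ subset_normalClosure hr
      exact this
    · show ψ (p * (α (w p))⁻¹) = 1
      rw [map_mul, map_inv, hα, hw, mul_inv_cancel]
  refine ⟨_, (hRfin.image _).union (T.finite_toSet.image _), le_antisymm hK ?_⟩
  let q := QuotientGroup.mk' K
  have hq : ∀ z, q z = 1 ↔ z ∈ K := fun z => QuotientGroup.eq_one_iff z
  have h1 : ∀ p, q p ∈ (q.comp α).range := by
    intro p
    have : (⊤ : Subgroup P) ≤ (q.comp α).range.comap q := by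
      rw [← hT, closure_le]
      intro p hp
      refine ⟨w p, ?_⟩
      have hmem : p * (α (w p))⁻¹ ∈ K := subset_normalClosure (Or.inr ⟨p, hp, rfl⟩)
      rw [← hq, map_mul, map_inv, mul_inv_eq_one] at hmem
      exact hmem.symm
    exact this (mem_top p)
  have h2 : φ.ker ≤ (q.comp α).ker := by
    rw [← hR]
    apply normalClosure_le_normal
    intro r hr
    show q (α r) = 1
    rw [hq]
    exact subset_normalClosure (Or.inl ⟨r, hr, rfl⟩)
  intro z hz
  obtain ⟨u, hu⟩ := h1 z
  have hu' : q (α u) = q z := hu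
  have h3 : (α u)⁻¹ * z ∈ K := by
    rw [← hq, map_mul, map_inv, inv_mul_eq_one]
    exact hu'
  have h4 := hK h3
  rw [MonoidHom.mem_ker, map_mul, map_inv, MonoidHom.mem_ker.mp hz, mul_one, inv_eq_one, hα] at h4
  have h5 : q (α u) = 1 := h2 h4
  rw [← hq, ← hu', h5]

theorem exists_presentation_two_gen {H : Type*} [Group H] [Group.IsFinitelyPresented H]
    (a b : H) (hab : closure {a, b} = ⊤) :
    ∃ R : Set (FreeGroup (Fin 2)), R.Finite ∧ Nonempty (PresentedGroup R ≃* H) := by
  let ψ : FreeGroup (Fin 2) →* H := FreeGroup.lift ![a, b]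
  have hψ : Function.Surjective ψ := by
    rw [← MonoidHom.range_eq_top, eq_top_iff, ← hab, closure_le]
    rintro x (rfl | rfl)
    · exact ⟨FreeGroup.of 0, by simp [ψ]⟩
    · exact ⟨FreeGroup.of 1, by simp [ψ]⟩
  obtain ⟨R, hRfin, hR⟩ := fng_ker_of_surjective ψ hψ
  exact ⟨R, hRfin, ⟨(QuotientGroup.quotientMulEquivOfEq hR).trans
    (QuotientGroup.quotientKerEquivOfSurjective ψ hψ)⟩⟩

end Vale.Agent.P192
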