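import Mathlib

namespace Vale.Agent.P192

open Subgroup Monoid.Coprod

theorem fg_of_fp {G : Type*} [Group G] [h : Group.IsFinitelyPresented G] : Group.FG G := by
  obtain ⟨n, φ, hφ, -⟩ := h.out
  exact Group.fg_of_surjective hφ

theorem finite_of_fg_freeGroup {α : Type*} (h : Group.FG (FreeGroup α)) : Finite α := by
  classical
  obtain ⟨S, hS⟩ := h.out
  by_contra hinf
  rw [not_finite_iff_infinite] at hinf
  let A : Finset α := S.biUnion (fun w => (w.toWord.map Prod.fst).toFinset)
  obtain ⟨x, hx⟩ := Infinite.exists_notMem_finset A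
  let f : FreeGroup α →* Multiplicative ℤ :=
    FreeGroup.lift (fun y => if y = x then Multiplicative.ofAdd 1 else 1)
  have hker : (⊤ : Subgroup (FreeGroup α)) ≤ f.ker := by
    rw [← hS, Subgroup.closure_le]
    intro w hw
    have hw' : ∀ p ∈ w.toWord, p.1 ≠ x := by
      intro p hp hpx
      apply hx
      simp only [A, Finset.mem_biUnion, List.mem_toFinset, List.mem_map]
      exact ⟨w, hw, p, hp, hpx⟩
    show f w = 1
    rw [← FreeGroup.mk_toWord (x := w)]
    simp only [f, FreeGroup.lift_mk]
    apply List.prod_eq_one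
    intro y hy
    rw [List.mem_map] at hy
    obtain ⟨p, hp, rfl⟩ := hy
    have := hw' p hp
    cases p.2 <;> simp [this]
  have h1 : f (FreeGroup.of x) = 1 := hker (Subgroup.mem_top _)
  simp [f] at h1

theorem fp_of_isFreeGroup_fg {K : Type*} [Group K] [IsFreeGroup K] [h : Group.FG K] :
    Group.IsFinitelyPresented K := by
  have e : K ≃* FreeGroup (IsFreeGroup.Generators K) := IsFreeGroup.toFreeGroup K
  have : Group.FG (FreeGroup (IsFreeGroup.Generators K)) :=
    Group.fg_of_surjective (f := e.toMonoidHom) e.surjective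
  have : Finite (IsFreeGroup.Generators K) := finite_of_fg_freeGroup this
  exact Group.IsFinitelyPresented.equiv e.symm

/-- normal generation of a normal subgroup inside a finite index subgroup -/
theorem fng_subgroupOf {F : Type*} [Group F] (K : Subgroup F) [K.FiniteIndex]
    (N : Subgroup F) (hN : N.IsFinitelyNormallyGenerated) (hNK : N ≤ K) :
    (N.subgroupOf K).IsFinitelyNormallyGenerated := by
  obtain ⟨S, hSfin, hS⟩ := hN
  obtain ⟨T, hT, -⟩ := K.exists_isComplement_right 1
  have hTfin : T.Finite := hT.finite_right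
  have hNn : N.Normal := by rw [← hS]; infer_instance
  let Y : Set F := Set.image2 (fun t s => t * s * t⁻¹) T S
  have hYfin : Y.Finite := Set.Finite.image2 _ hTfin hSfin
  have hYN : Y ⊆ N := by
    rintro _ ⟨t, -, s, hs, rfl⟩
    exact hNn.conj_mem s (hS ▸ subset_normalClosure hs) t
  refine ⟨K.subtype ⁻¹' Y, hYfin.preimage (K.subtype_injective.injOn), ?_⟩
  have : (N.subgroupOf K).Normal := inferInstance
  apply le_antisymm
  · apply normalClosure_le_normal
    intro x hx
    exact hYN hx
  · intro x hx
    have hx' : (x : F) ∈ N := hx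
    have key : N ≤ (normalClosure (K.subtype ⁻¹' Y)).map K.subtype := by
      rw [← hS, normalClosure, closure_le]
      intro y hy
      rw [Group.mem_conjugatesOfSet_iff] at hy
      obtain ⟨s, hs, hsy⟩ := hy
      rw [isConj_iff] at hsy
      obtain ⟨c, rfl⟩ := hsy
      obtain ⟨⟨k, t⟩, hkt⟩ := hT.2 c
      simp only at hkt
      have hmem : (t : F) * s * (t : F)⁻¹ ∈ Y := ⟨t, t.2, s, hs, rfl⟩
      have hK : (t : F) * s * (t : F)⁻¹ ∈ K := hNK (hYN hmem)
      refine ⟨(⟨k, k.2⟩ : K) * ⟨_, hK⟩ * (⟨k, k.2⟩ : K)⁻¹, ?_, ?_⟩
      · apply (normalClosure_normal).conj_mem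
        apply subset_normalClosure
        exact hmem
      · simp only [Subgroup.subtype_apply, Subgroup.coe_mul, Subgroup.coe_inv]
        rw [← hkt]
        group
    obtain ⟨z, hz, hzx⟩ := key hx'
    have : z = x := K.subtype_injective hzx
    exact this ▸ hz

theorem fp_of_finiteIndex {G : Type*} [Group G] [h : Group.IsFinitelyPresented G] (H : Subgroup G) [hH : H.FiniteIndex] :
    Group.IsFinitelyPresented H := by
  obtain ⟨n, φ, hφ, hker⟩ := h.out
  let K : Subgroup (FreeGroup (Fin n)) := H.comap φ
  have hK : K.FiniteIndex := ⟨by rw [index_comap_of_surjective H hφ]; exact hH.index_ne_zero⟩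
  have : Group.FG K := inferInstance
  have : Group.IsFinitelyPresented K := fp_of_isFreeGroup_fg
  refine Group.IsFinitelyPresented.of_surjective (φ.subgroupComap H)
    (φ.subgroupComap_surjective_of_surjective H hφ) ?_
  have hle : φ.ker ≤ K := by
    intro x hx
    show φ x ∈ H
    rw [MonoidHom.mem_ker.mp hx]
    exact H.one_mem
  have := fng_subgroupOf K φ.ker hker hle
  convert this using 1
  ext x
  rw [MonoidHom.mem_ker, Subgroup.mem_subgroupOf, MonoidHom.mem_ker, Subtype.ext_iff]
  rfl

theorem fp_of_extension {E Q : Type*} [Group E] [Group Q] (π : E →* Q)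
    (hπ : Function.Surjective π) [hN : Group.IsFinitelyPresented π.ker]
    [hQ : Group.IsFinitelyPresented Q] : Group.IsFinitelyPresented E := by
  classical
  obtain ⟨m, φQ, hφQ, SQ, hSQfin, hSQ⟩ := hQ.out
  choose y hy using fun j : Fin m => hπ (φQ (FreeGroup.of j))
  let lam : FreeGroup (Fin m) →* E := FreeGroup.lift y
  have hlam : π.comp lam = φQ := by
    ext j; simp [lam, hy]
  have hlam' : ∀ w, π (lam w) = φQ w := fun w => DFunLike.congr_fun hlam w
  let θ : Monoid.Coprod π.ker (FreeGroup (Fin m)) →* E := lift π.ker.subtype lam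
  have hθsurj : Function.Surjective θ := by
    intro e
    obtain ⟨w, hw⟩ := hφQ (π e)
    have hmem : e * (lam w)⁻¹ ∈ π.ker := by
      rw [MonoidHom.mem_ker, map_mul, map_inv, hlam', hw, mul_inv_cancel]
    refine ⟨inl ⟨_, hmem⟩ * inr w, ?_⟩
    simp [θ]
  have hNfg : Group.FG π.ker := fg_of_fp
  obtain ⟨SN, hSN⟩ := hNfg.out
  let c : Fin m → MulAut π.ker := fun j => MulAut.conjNormal (y j)
  let relA : Set (Monoid.Coprod π.ker (FreeGroup (Fin m))) :=
    Set.image2 (fun j n => inr (FreeGroup.of j) * inl n * (inr (FreeGroup.of j))⁻¹ * (inl (c j n))⁻¹)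
      Set.univ (SN : Set π.ker)
  let cc : FreeGroup (Fin m) → Monoid.Coprod π.ker (FreeGroup (Fin m)) :=
    fun s => if h : lam s ∈ π.ker then inr s * (inl ⟨lam s, h⟩)⁻¹ else 1
  let relC : Set (Monoid.Coprod π.ker (FreeGroup (Fin m))) := cc '' SQ
  have hfin : (relA ∪ relC).Finite :=
    (Set.Finite.image2 _ Set.finite_univ SN.finite_toSet).union (hSQfin.image _)
  let K := normalClosure (relA ∪ relC)
  have hKθ : K ≤ θ.ker := by
    apply normalClosure_le_normal
    rintro z (⟨j, -, n, -, rfl⟩ | ⟨s, -, rfl⟩)
    · simp [θ, c, lam, MonoidHom.mem_ker]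
    · simp only [cc]
      split_ifs with h
      · simp [θ, MonoidHom.mem_ker]
      · exact one_mem _
  refine Group.IsFinitelyPresented.of_surjective θ hθsurj ⟨_, hfin, ?_⟩
  apply le_antisymm hKθ
  let q := QuotientGroup.mk' K
  have hq : ∀ z, q z = 1 ↔ z ∈ K := fun z => QuotientGroup.eq_one_iff z
  let Nbar : Subgroup (Monoid.Coprod π.ker (FreeGroup (Fin m)) ⧸ K) := (q.comp inl).range
  have claim1 : ∀ j (n : π.ker), q (inr (FreeGroup.of j)) * q (inl n) * (q (inr (FreeGroup.of j)))⁻¹
      = q (inl (c j n)) := by
    intro j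
    have : (MulAut.conj (q (inr (FreeGroup.of j)))).toMonoidHom.comp (q.comp inl)
        = (q.comp inl).comp (c j).toMonoidHom := by
      apply MonoidHom.eq_of_eqOn_dense hSN
      intro n hn
      have hmem : inr (FreeGroup.of j) * inl n * (inr (FreeGroup.of j))⁻¹ * (inl (c j n))⁻¹ ∈ K :=
        subset_normalClosure (Or.inl ⟨j, trivial, n, hn, rfl⟩)
      rw [← hq] at hmem
      simp only [map_mul, map_inv] at hmem
      simpa [mul_inv_eq_one] using hmem
    intro n
    simpa using DFunLike.congr_fun this n
  have hnorm : Nbar.Normal := by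
    rw [← normalizer_eq_top_iff, eq_top_iff]
    have hL : ∀ z, q z ∈ normalizer (Nbar : Set _) := by
      intro z
      induction z using Monoid.Coprod.induction_on with
      | inl n => exact le_normalizer ⟨n, rfl⟩
      | inr w =>
        induction w using FreeGroup.induction_on with
        | C1 => simp
        | of j =>
          rw [mem_normalizer_iff]
          intro h
          constructor
          · rintro ⟨n, rfl⟩
            exact ⟨c j n, (claim1 j n).symm⟩
          · rintro ⟨n, hn⟩
            refine ⟨(c j).symm n, ?_⟩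
            have := claim1 j ((c j).symm n)
            rw [MulEquiv.apply_symm_apply] at this
            have h2 : q (inr (FreeGroup.of j)) * q (inl ((c j).symm n)) * (q (inr (FreeGroup.of j)))⁻¹
              = q (inr (FreeGroup.of j)) * h * (q (inr (FreeGroup.of j)))⁻¹ := by
              rw [this]; exact hn
            simpa using h2
        | inv_of j ih => simpa using inv_mem ih
        | mul a b iha ihb => simpa using mul_mem iha ihb
      | mul a b iha ihb => simpa using mul_mem iha ihb
    intro z _
    obtain ⟨z, rfl⟩ := QuotientGroup.mk'_surjective K z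
    exact hL z
  let r := QuotientGroup.mk' Nbar
  have hr : ∀ z, r z = 1 ↔ z ∈ Nbar := fun z => QuotientGroup.eq_one_iff z
  have claim3 : r.comp q = ((r.comp q).comp inr).comp snd := by
    apply hom_ext
    · ext n
      simp only [MonoidHom.comp_apply, snd_apply_inl, map_one]
      rw [hr]
      exact ⟨n, rfl⟩
    · ext w
      simp
  have claim4 : π.comp θ = φQ.comp snd := by
    apply hom_ext
    · ext n
      have := MonoidHom.mem_ker.mp n.2
      simpa [θ] using this
    · ext w
      simp [θ, lam, hy]
  have claim5 : φQ.ker ≤ ((r.comp q).comp inr).ker := by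
    rw [← hSQ]
    apply normalClosure_le_normal
    intro s hs
    have hs' : lam s ∈ π.ker := by
      rw [MonoidHom.mem_ker, hlam']
      have : s ∈ φQ.ker := hSQ ▸ subset_normalClosure hs
      exact this
    have hmem : inr s * (inl ⟨lam s, hs'⟩)⁻¹ ∈ K := by
      apply subset_normalClosure
      right
      refine ⟨s, hs, ?_⟩
      simp only [cc, dif_pos hs']
    rw [← hq, map_mul, map_inv, mul_inv_eq_one] at hmem
    show r (q (inr s)) = 1
    rw [hr, hmem]
    exact ⟨_, rfl⟩
  intro z hz
  have h1 : φQ (snd z) = 1 := by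
    have := DFunLike.congr_fun claim4 z
    simp only [MonoidHom.comp_apply] at this
    rw [← this, MonoidHom.mem_ker.mp hz, map_one]
  have h2 : r (q z) = 1 := by
    have := DFunLike.congr_fun claim3 z
    simp only [MonoidHom.comp_apply] at this
    rw [this]
    exact claim5 h1
  rw [hr] at h2
  obtain ⟨n, hn⟩ := h2
  have h3 : (inl n)⁻¹ * z ∈ K := by
    rw [← hq, map_mul, map_inv, inv_mul_eq_one]
    exact hn
  have h4 := hKθ h3
  rw [MonoidHom.mem_ker, map_mul, map_inv, MonoidHom.mem_ker.mp hz, mul_one, inv_eq_one] at h4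
  have h5 : n = 1 := by
    apply Subtype.ext
    simpa [θ] using h4
  rw [← hq, ← hn, h5]
  simp

theorem fp_of_exact {N E Q : Type*} [Group N] [Group E] [Group Q] (i : N →* E) (π : E →* Q)
    (hi : Function.Injective i) (hπ : Function.Surjective π) (hex : i.range = π.ker)
    [hN : Group.IsFinitelyPresented N] [hQ : Group.IsFinitelyPresented Q] :
    Group.IsFinitelyPresented E := by
  have e : N ≃* π.ker := (MonoidHom.ofInjective hi).trans (MulEquiv.subgroupCongr hex)
  have : Group.IsFinitelyPresented π.ker := Group.IsFinitelyPresented.equiv e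
  exact fp_of_extension π hπ

theorem fp_pi (G : Type*) [Group G] [Group.IsFinitelyPresented G] (α : Type*) [Finite α] :
    Group.IsFinitelyPresented (α → G) := by
  refine Finite.induction_empty_option (P := fun α => Group.IsFinitelyPresented (α → G))
    ?_ ?_ ?_ α
  · intro α β e h
    exact Group.IsFinitelyPresented.equiv (MulEquiv.arrowCongr e (MulEquiv.refl G))
  · infer_instance
  · intro α _ h
    let i : (α → G) →* (Option α → G) :=
      { toFun := fun f o => o.elim 1 f
        map_one' := by funext o; cases o <;> rfl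
        map_mul' := by intro f g; funext o; cases o <;> simp }
    refine fp_of_exact i (Pi.evalMonoidHom (fun _ => G) none) ?_ ?_ ?_
    · intro f g hfg
      funext a
      exact congr_fun hfg (some a)
    · intro g
      exact ⟨fun _ => g, rfl⟩
    · ext f
      constructor
      · rintro ⟨g, rfl⟩
        rfl
      · intro hf
        refine ⟨fun a => f (some a), ?_⟩
        funext o
        cases o
        · exact (MonoidHom.mem_ker.mp hf).symm
        · rfl

/-- base group embedding of the regular wreath product -/
def base (G Q : Type*) [Group G] [Group Q] : (Q → G) →* RegularWreathProduct G Q where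
  toFun f := ⟨f, 1⟩
  map_one' := rfl
  map_mul' f g := by
    ext
    · simp [RegularWreathProduct.mul_left]
    · simp

theorem base_injective (G Q : Type*) [Group G] [Group Q] : Function.Injective (base G Q) := by
  intro f g h
  exact congr_arg RegularWreathProduct.left h

theorem range_base (G Q : Type*) [Group G] [Group Q] :
    (base G Q).range = (RegularWreathProduct.rightHom : RegularWreathProduct G Q →* Q).ker := by
  ext w
  constructor
  · rintro ⟨f, rfl⟩
    rfl
  · intro hw
    refine ⟨w.left, ?_⟩
    ext
    · rfl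
    · exact (MonoidHom.mem_ker.mp hw).symm

theorem fp_wreath (G Q : Type*) [Group G] [Group Q] [Group.IsFinitelyPresented G] [Finite Q] :
    Group.IsFinitelyPresented (RegularWreathProduct G Q) := by
  have := fp_pi G Q
  refine fp_of_exact (base G Q) RegularWreathProduct.rightHom (base_injective G Q) ?_
    (range_base G Q)
  intro q
  exact ⟨RegularWreathProduct.inl q, rfl⟩

theorem torsion_pi {G : Type*} [Group G] (hG : IsMulTorsion G) (α : Type*) [Finite α] :
    IsMulTorsion (α → G) := by
  intro f
  cases nonempty_fintype α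
  rw [isOfFinOrder_iff_pow_eq_one]
  refine ⟨∏ a, orderOf (f a), Finset.prod_pos fun a _ => (hG (f a)).orderOf_pos, ?_⟩
  funext a
  rw [Pi.pow_apply, Pi.one_apply]
  exact orderOf_dvd_iff_pow_eq_one.mp (Finset.dvd_prod_of_mem _ (Finset.mem_univ a))

theorem torsion_wreath {G : Type*} [Group G] (hG : IsMulTorsion G) (Q : Type*) [Group Q] [Finite Q] :
    IsMulTorsion (RegularWreathProduct G Q) := by
  refine IsMulTorsion.extension_closed (f := RegularWreathProduct.rightHom) rfl
    isMulTorsion_of_finite ?_
  rw [← range_base]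
  exact IsMulTorsion.of_surjective (f := (base G Q).rangeRestrict)
    (base G Q).rangeRestrict_surjective (torsion_pi hG Q)

end Vale.Agent.P192
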