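import Vale.Agent.P192.FP

namespace Vale.Agent.P192

open Subgroup
open scoped commutatorElement

variable {G Q : Type*} [Group G] [Group Q]

theorem conj_base (q : Q) (f : Q → G) :
    (RegularWreathProduct.inl q : RegularWreathProduct G Q) * base G Q f *
      (RegularWreathProduct.inl q)⁻¹ = base G Q (fun x => f (q⁻¹ * x)) := by
  ext x
  · simp [base, RegularWreathProduct.mul_left, RegularWreathProduct.inv_left]
  · simp [base]

theorem commutator_le_of_gens {ι : Type*} (g : ι → G) (hg : closure (Set.range g) = ⊤)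
    (C : Subgroup G) [C.Normal] (h : ∀ i j, ⁅g i, g j⁆ ∈ C) : commutator G ≤ C := by
  let π := QuotientGroup.mk' C
  have hπ : ∀ z, π z = 1 ↔ z ∈ C := fun z => QuotientGroup.eq_one_iff z
  have h1 : ∀ i j, Commute (π (g i)) (π (g j)) := by
    intro i j
    have := (hπ _).mpr (h i j)
    rw [commutatorElement_def, map_mul, map_mul, map_mul, map_inv, map_inv] at this
    rw [commute_iff_eq]
    rw [mul_inv_eq_one, mul_inv_eq_iff_eq_mul] at this
    exact this
  have h2 : ∀ x i, Commute (π x) (π (g i)) := by
    intro x i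
    have : (⊤ : Subgroup G) ≤ (centralizer {π (g i)}).comap π := by
      rw [← hg, closure_le]
      rintro _ ⟨j, rfl⟩
      show π (g j) ∈ centralizer {π (g i)}
      rw [mem_centralizer_singleton_iff]
      exact (h1 j i).eq
    have := this (mem_top x)
    have h3 : π x ∈ centralizer {π (g i)} := this
    rw [mem_centralizer_singleton_iff] at h3
    exact h3
  have h3 : ∀ x y, Commute (π x) (π y) := by
    intro x y
    have : (⊤ : Subgroup G) ≤ (centralizer {π x}).comap π := by
      rw [← hg, closure_le]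
      rintro _ ⟨j, rfl⟩
      show π (g j) ∈ centralizer {π x}
      rw [mem_centralizer_singleton_iff]
      exact (h2 x j).eq.symm
    have h4 : π y ∈ centralizer {π x} := this (mem_top y)
    rw [mem_centralizer_singleton_iff] at h4
    exact h4.symm
  rw [_root_.commutator_def, commutator_le]
  intro x _ y _
  rw [← hπ, commutatorElement_def, map_mul, map_mul, map_mul, map_inv, map_inv,
    (h3 x y).eq]
  group

theorem sidon_lemma [Finite Q] [DecidableEq Q] {ι : Type*} (g : ι → G)
    (hg : closure (Set.range g) = ⊤) (p : ι → Q)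
    (hp : ∀ i j k l, i ≠ j → p k = p i * (p j)⁻¹ * p l → k = i)
    (α : Q → G) (hα : ∀ i, α (p i) = g i) (hα' : ∀ x, x ∉ Set.range p → α x = 1)
    (S : Subgroup (RegularWreathProduct G Q)) (hS1 : base G Q α ∈ S)
    (hS2 : ∀ q, RegularWreathProduct.inl q ∈ S)
    (f : Q → G) (hf : ∀ x, f x ∈ commutator G) : base G Q f ∈ S := by
  have hshift : ∀ (q : Q) (β : Q → G), base G Q β ∈ S → base G Q (fun x => β (q⁻¹ * x)) ∈ S := by
    intro q β hβ
    rw [← conj_base]
    exact S.mul_mem (S.mul_mem (hS2 q) hβ) (S.inv_mem (hS2 q))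
  let C : Subgroup G := S.comap ((base G Q).comp (MonoidHom.mulSingle (fun _ => G) 1))
  have hC : ∀ c, c ∈ C ↔ base G Q (Pi.mulSingle 1 c) ∈ S := fun c => Iff.rfl
  have hsingle : ∀ (q x : Q) (c : G), (fun y => (Pi.mulSingle x c : Q → G) (q⁻¹ * y))
      = Pi.mulSingle (q * x) c := by
    intro q x c
    funext y
    by_cases h : y = q * x
    · subst h
      simp
    · rw [Pi.mulSingle_eq_of_ne h, Pi.mulSingle_eq_of_ne]
      intro h'
      apply h
      rw [← h']
      simp
  have hC' : ∀ (x : Q) (c : G), base G Q (Pi.mulSingle x c) ∈ S ↔ c ∈ C := by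
    intro x c
    rw [hC]
    constructor
    · intro h
      have := hshift x⁻¹ _ h
      rw [hsingle] at this
      simpa using this
    · intro h
      have := hshift x _ h
      rw [hsingle] at this
      simpa using this
  have hconj : ∀ (β : Q → G) (c : G), β * Pi.mulSingle 1 c * β⁻¹
      = Pi.mulSingle 1 (β 1 * c * (β 1)⁻¹) := by
    intro β c
    funext y
    by_cases h : y = 1
    · subst h
      simp
    · simp [Pi.mulSingle_eq_of_ne h]
  have hnormal : C.Normal := by
    rw [← normalizer_eq_top_iff, eq_top_iff, ← hg, closure_le]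
    rintro _ ⟨l, rfl⟩
    have hβ : base G Q (fun x => α ((p l)⁻¹⁻¹ * x)) ∈ S := hshift (p l)⁻¹ α hS1
    set β : Q → G := fun x => α ((p l)⁻¹⁻¹ * x) with hβdef
    have hβ1 : β 1 = g l := by simp [hβdef, hα]
    show g l ∈ normalizer (C : Set G)
    rw [mem_normalizer_iff]
    intro c
    rw [hC, hC, ← hβ1, ← hconj, map_mul, map_mul, map_inv]
    constructor
    · intro h
      exact S.mul_mem (S.mul_mem hβ h) (S.inv_mem hβ)
    · intro h
      have := S.mul_mem (S.mul_mem (S.inv_mem hβ) h) hβ
      simpa [mul_assoc] using this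
  have hcomm : ∀ i j, ⁅g i, g j⁆ ∈ C := by
    intro i j
    by_cases hij : i = j
    · subst hij
      simp
    · rw [← hC' (p i)]
      have hβ : base G Q (fun x => α ((p i * (p j)⁻¹)⁻¹ * x)) ∈ S := hshift _ α hS1
      set β : Q → G := fun x => α ((p i * (p j)⁻¹)⁻¹ * x) with hβdef
      have : (Pi.mulSingle (p i) ⁅g i, g j⁆ : Q → G) = ⁅α, β⁆ := by
        funext y
        rw [commutatorElement_def α β]
        by_cases h : y = p i
        · subst h
          have hb : β (p i) = g j := by
            rw [hβdef]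
            show α ((p i * (p j)⁻¹)⁻¹ * p i) = g j
            rw [← hα j]
            congr 1
            group
          simp only [Pi.mulSingle_eq_same, Pi.mul_apply, Pi.inv_apply, hb, hα,
            commutatorElement_def]
        · rw [Pi.mulSingle_eq_of_ne h]
          simp only [Pi.mul_apply, Pi.inv_apply]
          by_cases h1 : y ∈ Set.range p
          · obtain ⟨k, rfl⟩ := h1
            have h2 : β (p k) = 1 := by
              apply hα'
              rintro ⟨l, hl⟩
              apply h
              congr 1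
              apply hp i j k l hij
              rw [hl]
              group
            rw [h2]
            simp
          · rw [hα' y h1]
            simp
      rw [this, commutatorElement_def, map_mul, map_mul, map_mul, map_inv, map_inv]
      exact S.mul_mem (S.mul_mem (S.mul_mem hS1 hβ) (S.inv_mem hS1)) (S.inv_mem hβ)
  have hle : commutator G ≤ C := commutator_le_of_gens g hg C hcomm
  have : f ∈ S.comap (base G Q) := by
    apply pi_mem_of_mulSingle_mem
    intro x
    show base G Q (Pi.mulSingle x (f x)) ∈ S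
    rw [hC']
    exact hle (hf x)
  exact this

/-- functoriality of the wreath product in the bottom group -/
def mapLeft {G' : Type*} [Group G'] (φ : G →* G') (Q : Type*) [Group Q] :
    RegularWreathProduct G Q →* RegularWreathProduct G' Q where
  toFun w := ⟨fun x => φ (w.left x), w.right⟩
  map_one' := by
    ext
    · simp
    · rfl
  map_mul' a b := by
    ext
    · simp [RegularWreathProduct.mul_left]
    · rfl

theorem abelianization_of_surjective (G : Type*) [Group G] :
    Function.Surjective (Abelianization.of : G →* Abelianization G) :=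
  QuotientGroup.mk_surjective

theorem finite_abelianization [Group.FG G] (hG : IsMulTorsion G) : Finite (Abelianization G) := by
  have : Group.FG (Abelianization G) :=
    Group.fg_of_surjective (f := Abelianization.of) (abelianization_of_surjective G)
  exact CommGroup.finite_of_fg_isMulTorsion _
    (IsMulTorsion.of_surjective (f := Abelianization.of) (abelianization_of_surjective G) hG)

theorem finiteIndex_of_base_commutator [Group.FG G] (hG : IsMulTorsion G) [Finite Q]
    (S : Subgroup (RegularWreathProduct G Q))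
    (hS : ∀ f : Q → G, (∀ x, f x ∈ commutator G) → base G Q f ∈ S) : S.FiniteIndex := by
  have := finite_abelianization hG
  have h1 : (mapLeft (Abelianization.of : G →* Abelianization G) Q).ker.FiniteIndex :=
    finiteIndex_ker _
  refine finiteIndex_of_le (H := (mapLeft (Abelianization.of : G →* Abelianization G) Q).ker) ?_
  intro w hw
  rw [MonoidHom.mem_ker] at hw
  have hr : w.right = 1 := congr_arg RegularWreathProduct.right hw
  have hl : ∀ x, w.left x ∈ commutator G := by
    intro x
    have := congr_fun (congr_arg RegularWreathProduct.left hw) x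
    have h2 : Abelianization.of (w.left x) = 1 := this
    rwa [← MonoidHom.mem_ker, Abelianization.ker_of] at h2
  have : w = base G Q w.left := by
    ext
    · rfl
    · exact hr
  rw [this]
  exact hS _ hl

omit [Group Q] in
set_option backward.isDefEq.respectTransparency false in
theorem hom_pi_eq_prod [Fintype Q] [DecidableEq Q] {A : Type*} [CommGroup A]
    (Φ : (Q → G) →* A) (f : Q → G) : Φ f = ∏ x, Φ (Pi.mulSingle x (f x)) := by
  conv_lhs => rw [← Finset.noncommProd_mulSingle f]
  rw [Finset.univ.map_noncommProd, Finset.noncommProd_eq_prod]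

theorem diag_mem_commutator [Fintype Q] [DecidableEq Q]
    (hm : ∀ g : G, g ^ (Fintype.card Q) ∈ commutator G) (g : G) :
    base G Q (fun _ => g) ∈ commutator (RegularWreathProduct G Q) := by
  rw [← Abelianization.ker_of, MonoidHom.mem_ker]
  let c : RegularWreathProduct G Q →* Abelianization (RegularWreathProduct G Q) := Abelianization.of
  have h1 : ∀ x : Q, c (base G Q (Pi.mulSingle x g)) = c (base G Q (Pi.mulSingle 1 g)) := by
    intro x
    have : (Pi.mulSingle x g : Q → G) = fun y => (Pi.mulSingle 1 g : Q → G) (x⁻¹ * y) := by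
      funext y
      by_cases h : y = x
      · subst h
        simp
      · rw [Pi.mulSingle_eq_of_ne h, Pi.mulSingle_eq_of_ne]
        intro h'
        apply h
        rw [inv_mul_eq_one] at h'
        exact h'.symm
    rw [this, ← conj_base, map_mul, map_mul, map_inv, mul_comm, ← mul_assoc, inv_mul_cancel, one_mul]
  show (c.comp (base G Q)) (fun _ => g) = 1
  rw [hom_pi_eq_prod]
  simp only [MonoidHom.comp_apply]
  rw [Finset.prod_congr rfl (fun x _ => h1 x), Finset.prod_const, Finset.card_univ, ← map_pow,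
    ← map_pow, ← Pi.mulSingle_pow]
  have h2 : commutator G ≤ (c.comp ((base G Q).comp (MonoidHom.mulSingle (fun _ => G) 1))).ker :=
    Abelianization.commutator_subset_ker _
  exact h2 (hm g)

theorem pow2_aux {a b c d : ℕ} (hab : a ≤ b) (hcd : c ≤ d) (h : 2 ^ a + 2 ^ b = 2 ^ c + 2 ^ d) :
    a = c ∧ b = d := by
  have key : ∀ {a b c d : ℕ}, a ≤ b → 2 ^ a + 2 ^ b = 2 ^ c + 2 ^ d → ¬ b < d := by
    intro a b c d hab h hbd
    have h1 : 2 ^ a ≤ 2 ^ b := Nat.pow_le_pow_right (by norm_num) hab
    have h2 : 2 ^ (b + 1) ≤ 2 ^ d := Nat.pow_le_pow_right (by norm_num) hbd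
    have h3 : 0 < 2 ^ c := by positivity
    rw [pow_succ] at h2
    omega
  have hbd : b = d := le_antisymm (not_lt.mp (key hcd h.symm)) (not_lt.mp (key hab h))
  subst hbd
  exact ⟨Nat.pow_right_injective (le_refl 2) (by simpa using h), rfl⟩

theorem pow2_sidon {k j i l : ℕ} (h : 2 ^ k + 2 ^ j = 2 ^ i + 2 ^ l) (hij : i ≠ j) : k = i := by
  rcases le_total k j with h1 | h1 <;> rcases le_total i l with h2 | h2
  · exact (pow2_aux h1 h2 h).1
  · exact absurd (pow2_aux h1 h2 (by omega)).2.symm hij
  · exact absurd (pow2_aux h1 h2 (by omega)).1.symm hij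
  · exact (pow2_aux h1 h2 (by omega)).2

/-- positions -/
def pos (d : ℕ) (i : Fin d) : Multiplicative (ZMod (2 ^ (d + 1))) :=
  Multiplicative.ofAdd (((2 ^ (i : ℕ) : ℕ)) : ZMod (2 ^ (d + 1)))

theorem pow_lt_aux (d : ℕ) (i : Fin d) : 2 ^ (i : ℕ) * 2 ≤ 2 ^ d := by
  rw [← pow_succ]
  exact Nat.pow_le_pow_right (by norm_num) i.2

theorem pos_sidon (d : ℕ) (i j k l : Fin d) (hij : i ≠ j)
    (h : pos d k = pos d i * (pos d j)⁻¹ * pos d l) : k = i := by
  have h1 : (((2 ^ (k : ℕ) : ℕ)) : ZMod (2 ^ (d + 1))) =
      ((2 ^ (i : ℕ) : ℕ) : ZMod (2 ^ (d + 1))) - ((2 ^ (j : ℕ) : ℕ) : ZMod (2 ^ (d + 1)))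
        + ((2 ^ (l : ℕ) : ℕ) : ZMod (2 ^ (d + 1))) := by
    have := congr_arg Multiplicative.toAdd h
    simpa [pos, sub_eq_add_neg] using this
  have h2 : ((2 ^ (k : ℕ) + 2 ^ (j : ℕ) : ℕ) : ZMod (2 ^ (d + 1)))
      = ((2 ^ (i : ℕ) + 2 ^ (l : ℕ) : ℕ) : ZMod (2 ^ (d + 1))) := by
    push_cast
    push_cast at h1
    rw [h1]
    ring
  rw [ZMod.natCast_eq_natCast_iff'] at h2
  have hk := pow_lt_aux d k
  have hj := pow_lt_aux d j
  have hi := pow_lt_aux d i
  have hl := pow_lt_aux d l
  have hd : 2 ^ (d + 1) = 2 ^ d * 2 := pow_succ 2 d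
  have hpos : 0 < 2 ^ d := by positivity
  rw [Nat.mod_eq_of_lt (by omega), Nat.mod_eq_of_lt (by omega)] at h2
  apply Fin.ext
  exact pow2_sidon h2 (fun h => hij (Fin.ext h))

theorem pos_injective (d : ℕ) : Function.Injective (pos d) := by
  intro i j h
  have h1 : (((2 ^ (i : ℕ) : ℕ)) : ZMod (2 ^ (d + 1))) = ((2 ^ (j : ℕ) : ℕ) : ZMod (2 ^ (d + 1))) :=
    congr_arg Multiplicative.toAdd h
  rw [ZMod.natCast_eq_natCast_iff'] at h1
  have hj := pow_lt_aux d j
  have hi := pow_lt_aux d i
  have hd : 2 ^ (d + 1) = 2 ^ d * 2 := pow_succ 2 d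
  have hpos : 0 < 2 ^ d := by positivity
  rw [Nat.mod_eq_of_lt (by omega), Nat.mod_eq_of_lt (by omega)] at h1
  exact Fin.ext (Nat.pow_right_injective (le_refl 2) h1)

theorem zmod_cyclic (n : ℕ) [NeZero n] (q : Multiplicative (ZMod n)) :
    q = (Multiplicative.ofAdd (1 : ZMod n)) ^ (Multiplicative.toAdd q).val := by
  rw [← ofAdd_nsmul]
  simp

end Vale.Agent.P192
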